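import Vale.Agent.Results.P164.GaugeRigidity

/-!
# P164: structure of the class of exact gauges for the SLE trace (all our results in one statement)
-/

namespace Vale.Agent.Results.P164.A_Combined

open Vale.Agent.Lib.P164
open MeasureTheory ProbabilityTheory Set Filter Topology
open scoped NNReal ENNReal Pointwise

/-- The class of exact gauges of SLE(κ) is closed under dilation of the argument (0) and under
comparability near `0` (3); if a realisation of the trace exists, two exact gauges are never `o` of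
each other (1) and an exact gauge is not rapidly varying at `0` (2). -/
theorem result (κ : ℝ) :
    (∀ h : ℝ → ℝ, IsExactGauge κ h → ∀ a : ℝ, 0 < a → IsExactGauge κ (fun r => h (a * r))) ∧
    ((∃ (Ω : Type) (_ : MeasurableSpace Ω) (P : Measure Ω) (B : ℝ≥0 → Ω → ℝ) (γ : Ω → ℝ≥0 → ℂ),
        IsChordalSLE κ P B γ) →
      (∀ h₁ h₂ : ℝ → ℝ, IsExactGauge κ h₁ → IsExactGauge κ h₂ →
        ¬ Tendsto (fun r => h₁ r / h₂ r) (𝓝[>] 0) (𝓝 0)) ∧
      (∀ h : ℝ → ℝ, IsExactGauge κ h → ∀ a : ℝ, 0 < a →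
        ¬ Tendsto (fun r => h (a * r) / h r) (𝓝[>] 0) (𝓝 0))) ∧
    (∀ h h' : ℝ → ℝ, IsExactGauge κ h → IsGauge h' →
      (∃ c C δ : ℝ, 0 < c ∧ 0 < C ∧ 0 < δ ∧ ∀ r, 0 < r → r < δ → c * h r ≤ h' r ∧ h' r ≤ C * h r) →
      IsExactGauge κ h') :=
  ⟨fun h hh a ha => GaugeScaling.result κ h hh a ha, GaugeRigidity.result κ⟩

end Vale.Agent.Results.P164.A_Combined
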