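import Vale.Agent.Results.P164.GaugeScaling

/-!
# P164: rigidity of the class of exact gauges for the SLE trace
-/

namespace Vale.Agent.Results.P164.GaugeRigidity

open Vale.Agent.Lib.P164
open MeasureTheory ProbabilityTheory Set Filter Topology
open scoped NNReal ENNReal Pointwise

/-- comparison of gauge measures: `h₁ ≤ ε h₂` near `0` gives `ℋ^{h₁} ≤ ε ℋ^{h₂}` -/
lemma gaugeMeasure_le_smul {h₁ h₂ : ℝ → ℝ} {ε δ : ℝ} (hε : 0 < ε) (hδ : 0 < δ)
    (hle : ∀ r, 0 ≤ r → r < δ → h₁ r ≤ ε * h₂ r) (E : Set ℂ) :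
    gaugeMeasure h₁ E ≤ ENNReal.ofReal ε * gaugeMeasure h₂ E := by
  have hc0 : ENNReal.ofReal ε ≠ 0 := (ENNReal.ofReal_pos.2 hε).ne'
  have key := Measure.mkMetric_mono_smul (X := ℂ)
    (m₁ := fun r : ℝ≥0∞ => if r = ⊤ then ⊤ else ENNReal.ofReal (h₁ r.toReal))
    (m₂ := fun r : ℝ≥0∞ => if r = ⊤ then ⊤ else ENNReal.ofReal (h₂ r.toReal))
    (c := ENNReal.ofReal ε) ENNReal.ofReal_ne_top hc0 ?_
  · exact key E
  · have hmem : Iio (ENNReal.ofReal δ) ∈ 𝓝[≥] (0 : ℝ≥0∞) :=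
      mem_nhdsWithin_of_mem_nhds (Iio_mem_nhds (ENNReal.ofReal_pos.2 hδ))
    filter_upwards [hmem] with r hr
    have hrtop : r ≠ ⊤ := ne_top_of_lt hr
    have hr2 : r.toReal < δ := by
      rw [← ENNReal.ofReal_lt_ofReal_iff hδ, ENNReal.ofReal_toReal hrtop]
      exact hr
    simp only [Pi.smul_apply, hrtop, if_false, smul_eq_mul]
    rw [← ENNReal.ofReal_mul hε.le]
    exact ENNReal.ofReal_le_ofReal (hle _ ENNReal.toReal_nonneg hr2)

/-- if `h₁ = o(h₂)` at `0` then `ℋ^{h₁}` vanishes on sets of finite `ℋ^{h₂}` measure -/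
lemma gaugeMeasure_eq_zero {h₁ h₂ : ℝ → ℝ} (g₁ : IsGauge h₁) (g₂ : IsGauge h₂)
    (hlim : Tendsto (fun r => h₁ r / h₂ r) (𝓝[>] 0) (𝓝 0)) (E : Set ℂ)
    (hfin : gaugeMeasure h₂ E < ⊤) : gaugeMeasure h₁ E = 0 := by
  have hall : ∀ ε : ℝ, 0 < ε → gaugeMeasure h₁ E ≤ ENNReal.ofReal ε * gaugeMeasure h₂ E := by
    intro ε hε
    have hev : ∀ᶠ r in 𝓝[>] (0 : ℝ), h₁ r / h₂ r < ε := hlim.eventually (gt_mem_nhds hε)
    obtain ⟨δ, hδ, hsub⟩ := (mem_nhdsGT_iff_exists_Ioo_subset).1 hev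
    refine gaugeMeasure_le_smul hε hδ ?_ E
    intro r hr0 hrδ
    rcases hr0.eq_or_lt with h0 | hpos
    · rw [← h0, g₁.zero, g₂.zero, mul_zero]
    · have h3 : h₁ r / h₂ r < ε := hsub ⟨hpos, hrδ⟩
      rw [div_lt_iff₀ (g₂.pos r hpos)] at h3
      exact h3.le
  set M := gaugeMeasure h₂ E with hM
  have hMtop : M ≠ ⊤ := hfin.ne
  refine le_antisymm ?_ zero_le
  refine ENNReal.le_of_forall_pos_le_add ?_
  intro η hη _
  rw [zero_add]
  have h2 : 0 ≤ M.toReal := ENNReal.toReal_nonneg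
  have h3 : (0 : ℝ) ≤ η := η.2
  have hpos : (0 : ℝ) < (η : ℝ) / (M.toReal + 1) := by
    have : (0 : ℝ) < η := by exact_mod_cast hη
    positivity
  refine (hall _ hpos).trans ?_
  calc ENNReal.ofReal ((η : ℝ) / (M.toReal + 1)) * M
      = ENNReal.ofReal ((η : ℝ) / (M.toReal + 1)) * ENNReal.ofReal M.toReal := by
        rw [ENNReal.ofReal_toReal hMtop]
    _ = ENNReal.ofReal ((η : ℝ) / (M.toReal + 1) * M.toReal) :=
        (ENNReal.ofReal_mul hpos.le).symm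
    _ ≤ ENNReal.ofReal (η : ℝ) := by
        apply ENNReal.ofReal_le_ofReal
        rw [div_mul_eq_mul_div, div_le_iff₀ (by positivity)]
        nlinarith
    _ = η := ENNReal.ofReal_coe_nnreal

/-- Rigidity of the class of exact gauges.  Assume that a realisation of the SLE(κ) trace exists
(Rohde-Schramm).  (1) Two exact gauges are never `o` of each other.  (2) An exact gauge is not
rapidly varying at `0`: `h (a r) / h r` does not tend to `0` for any `a > 0`.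
Without that assumption: (3) a gauge comparable to an exact gauge near `0` is an exact gauge. -/
theorem result (κ : ℝ) :
    ((∃ (Ω : Type) (_ : MeasurableSpace Ω) (P : Measure Ω) (B : ℝ≥0 → Ω → ℝ) (γ : Ω → ℝ≥0 → ℂ),
        IsChordalSLE κ P B γ) →
      (∀ h₁ h₂ : ℝ → ℝ, IsExactGauge κ h₁ → IsExactGauge κ h₂ →
        ¬ Tendsto (fun r => h₁ r / h₂ r) (𝓝[>] 0) (𝓝 0)) ∧
      (∀ h : ℝ → ℝ, IsExactGauge κ h → ∀ a : ℝ, 0 < a →
        ¬ Tendsto (fun r => h (a * r) / h r) (𝓝[>] 0) (𝓝 0))) ∧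
    (∀ h h' : ℝ → ℝ, IsExactGauge κ h → IsGauge h' →
      (∃ c C δ : ℝ, 0 < c ∧ 0 < C ∧ 0 < δ ∧ ∀ r, 0 < r → r < δ → c * h r ≤ h' r ∧ h' r ≤ C * h r) →
      IsExactGauge κ h') := by
  refine ⟨?_, ?_⟩
  · rintro ⟨Ω, mΩ, P, B, γ, hSLE⟩
    have hP : IsProbabilityMeasure P :=
      hSLE.brownian.toIsPreBrownianReal.isGaussianProcess.isProbabilityMeasure
    have main : ∀ h₁ h₂ : ℝ → ℝ, IsExactGauge κ h₁ → IsExactGauge κ h₂ →
        ¬ Tendsto (fun r => h₁ r / h₂ r) (𝓝[>] 0) (𝓝 0) := by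
      intro h₁ h₂ e₁ e₂ hlim
      obtain ⟨ω, hω₁, hω₂⟩ := ((e₁.2 Ω P B γ hSLE).and (e₂.2 Ω P B γ hSLE)).exists
      have a₁ := (hω₁ 1 2 one_pos (by norm_num)).1
      have a₂ := (hω₂ 1 2 one_pos (by norm_num)).2
      rw [gaugeMeasure_eq_zero e₁.1 e₂.1 hlim _ a₂] at a₁
      exact lt_irrefl _ a₁
    refine ⟨main, ?_⟩
    intro h e a ha
    exact main _ _ (GaugeScaling.result κ h e a ha) e
  · rintro h h' e g' ⟨c, C, δ, hc, hC, hδ, hcmp⟩
    refine ⟨g', ?_⟩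
    intro Ω _ P B γ hSLE
    filter_upwards [e.2 Ω P B γ hSLE] with ω hω
    intro s t hs hst
    obtain ⟨b₁, b₂⟩ := hω s t hs hst
    have u₁ : gaugeMeasure h' (γ ω '' Icc s t)
        ≤ ENNReal.ofReal C * gaugeMeasure h (γ ω '' Icc s t) := by
      refine gaugeMeasure_le_smul hC hδ ?_ _
      intro r hr0 hrδ
      rcases hr0.eq_or_lt with h0 | hpos
      · rw [← h0, g'.zero, e.1.zero, mul_zero]
      · exact (hcmp r hpos hrδ).2
    have u₂ : gaugeMeasure h (γ ω '' Icc s t)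
        ≤ ENNReal.ofReal c⁻¹ * gaugeMeasure h' (γ ω '' Icc s t) := by
      refine gaugeMeasure_le_smul (inv_pos.2 hc) hδ ?_ _
      intro r hr0 hrδ
      rcases hr0.eq_or_lt with h0 | hpos
      · rw [← h0, g'.zero, e.1.zero, mul_zero]
      · have := (hcmp r hpos hrδ).1
        rw [inv_mul_eq_div, le_div_iff₀ hc]
        linarith
    constructor
    · by_contra hzero
      have hz : gaugeMeasure h' (γ ω '' Icc s t) = 0 := by
        exact le_antisymm (not_lt.1 hzero) zero_le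
      rw [hz, mul_zero] at u₂
      exact absurd b₁ (not_lt.2 u₂)
    · exact lt_of_le_of_lt u₁ (ENNReal.mul_lt_top ENNReal.ofReal_lt_top b₂)

end Vale.Agent.Results.P164.GaugeRigidity
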