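import Vale.Agent.Lib.P164.LoewnerScale

/-!
# P164: the class of exact gauges for the SLE trace is invariant under rescaling the argument
-/

namespace Vale.Agent.Results.P164.GaugeScaling

open Vale.Agent.Lib.P164
open MeasureTheory ProbabilityTheory Set
open scoped NNReal ENNReal Pointwise

lemma isGauge_scale {h : ℝ → ℝ} (hh : IsGauge h) {a : ℝ} (ha : 0 < a) :
    IsGauge (fun r => h (a * r)) := by
  have hmaps : MapsTo (fun r : ℝ => a * r) (Ici 0) (Ici 0) := fun r hr => mul_nonneg ha.le hr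
  refine ⟨?_, ?_, ?_, ?_⟩
  · exact hh.cont.comp (by fun_prop) hmaps
  · intro x hx y hy hxy
    exact hh.mono (hmaps hx) (hmaps hy) (mul_le_mul_of_nonneg_left hxy ha.le)
  · simp [hh.zero]
  · intro r hr
    exact hh.pos _ (mul_pos ha hr)

theorem result (κ : ℝ) (h : ℝ → ℝ) (hh : IsExactGauge κ h) (a : ℝ) (ha : 0 < a) :
    IsExactGauge κ (fun r => h (a * r)) := by
  refine ⟨isGauge_scale hh.1 ha, ?_⟩
  intro Ω _ P B γ hSLE
  -- the scaling parameter
  set c : ℝ≥0 := (Real.toNNReal (a ^ 2))⁻¹ with hcdef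
  have ha2 : 0 < a ^ 2 := by positivity
  have hc : c ≠ 0 := by
    rw [hcdef]
    exact inv_ne_zero (Real.toNNReal_pos.2 ha2).ne'
  have hsqrt : (√(c : ℝ))⁻¹ = a := by
    rw [hcdef]
    push_cast
    rw [Real.coe_toNNReal _ ha2.le, Real.sqrt_inv, inv_inv, Real.sqrt_sq ha.le]
  have hSLE' : IsChordalSLE κ P (fun t ω => (√(c : ℝ))⁻¹ * B (c * t) ω)
      (fun ω => scaleCurve c (γ ω)) := by
    refine ⟨hSLE.brownian.smul hc, ?_⟩
    filter_upwards [hSLE.trace] with ω hω
    have := hω.scale c hc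
    have e : scaleW c (fun t => √κ * B t ω) = fun t => √κ * ((√(c : ℝ))⁻¹ * B (c * t) ω) := by
      funext t
      unfold scaleW
      ring
    rwa [e] at this
  filter_upwards [hh.2 Ω P _ _ hSLE'] with ω hω
  intro s t hs hst
  have hcinv : 0 < c⁻¹ := inv_pos.2 (pos_of_ne_zero hc)
  have h1 := hω (c⁻¹ * s) (c⁻¹ * t) (mul_pos hcinv hs) (mul_lt_mul_of_pos_left hst hcinv)
  rw [image_scaleCurve_Icc c hc, ← mul_assoc, ← mul_assoc, mul_inv_cancel₀ hc, one_mul, one_mul,
    hsqrt] at h1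
  rw [gaugeMeasure_scale h a ha]
  exact h1

end Vale.Agent.Results.P164.GaugeScaling
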